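import Vale.Agent.Lib.P347.Potential

namespace Vale.Agent.Lib.P347

open MeasureTheory

/-- If every query made on `quadPot 0` is orthogonal to all `u j`, the transcripts on
`quadPot u` and `quadPot 0` coincide. -/
lemma transcript_eq {d : ℕ} {S : Type} (A : SeededAlg d S) (u : Fin 4 → Sp d) (s : S) (q : ℕ)
    (h : ∀ k < q, ∀ j, inner ℝ (u j) (A.query s (transcript A (quadPot 0) s k)) = 0) :
    ∀ k ≤ q, transcript A (quadPot u) s k = transcript A (quadPot 0) s k := by
  intro k
  induction k with
  | zero => intro _; rfl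
  | succ k ih =>
    intro hk
    have hk' : k < q := hk
    have ih' := ih hk'.le
    simp only [transcript]
    rw [ih', oracle_quadPot_eq u _ (h k hk')]

lemma outputLaw_eq {d : ℕ} {S : Type} [Fintype S] (A : SeededAlg d S) (u : Fin 4 → Sp d) (q : ℕ)
    (h : ∀ s, ∀ k < q, ∀ j, inner ℝ (u j) (A.query s (transcript A (quadPot 0) s k)) = 0) :
    outputLaw A (quadPot u) q = outputLaw A (quadPot 0) q := by
  unfold outputLaw
  refine Finset.sum_congr rfl (fun s _ => ?_)
  rw [transcript_eq A u s q (h s) q le_rfl]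

/-- Given at most `d - 4` points of `ℝ^d`, there are four orthonormal vectors orthogonal to
all of them. -/
lemma exists_orthonormal_orth {d : ℕ} {ι : Type} [Fintype ι] (P : ι → Sp d)
    (hcard : Fintype.card ι + 4 ≤ d) :
    ∃ u : Fin 4 → Sp d, Orthonormal ℝ u ∧ ∀ j i, inner ℝ (u j) (P i) = 0 := by
  classical
  set K : Submodule ℝ (Sp d) := Submodule.span ℝ (Set.range P) with hK
  have h1 : Module.finrank ℝ K ≤ Fintype.card ι := finrank_range_le_card P
  have h2 : Module.finrank ℝ K + Module.finrank ℝ Kᗮ = d := by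
    have := Submodule.finrank_add_finrank_orthogonal K
    simpa using this
  have h3 : 4 ≤ Module.finrank ℝ Kᗮ := by omega
  let o := stdOrthonormalBasis ℝ Kᗮ
  refine ⟨fun j => (o (Fin.castLE h3 j) : Sp d), ?_, ?_⟩
  · have ho : Orthonormal ℝ (fun i => (o i : Sp d)) := by
      have := o.orthonormal
      exact (Kᗮ.subtypeₗᵢ.orthonormal_comp_iff (v := fun i => o i)).mpr this
    exact ho.comp (Fin.castLE h3) (Fin.castLE_injective h3)
  · intro j i
    have hmem : (o (Fin.castLE h3 j) : Sp d) ∈ Kᗮ := (o (Fin.castLE h3 j)).2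
    have hP : P i ∈ K := Submodule.subset_span (Set.mem_range_self i)
    rw [real_inner_comm]
    exact Submodule.inner_right_of_mem_orthogonal hP hmem

/-- Bessel's inequality in the form needed for `quadPot_mem`. -/
lemma bessel_four {d : ℕ} (u : Fin 4 → Sp d) (hu : Orthonormal ℝ u) (v : Sp d) :
    ∑ j, (inner ℝ (u j) v) ^ 2 ≤ ‖v‖ ^ 2 := by
  have := hu.sum_inner_products_le (s := Finset.univ) v
  simpa using this

end Vale.Agent.Lib.P347
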