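import Mathlib

/-!
Query model for sampling from `π_V ∝ exp (-V)` on `ℝ^d` with a first-order oracle, restricted
to algorithms whose query points depend on the random bits only through a seed taken from a
finite set.
-/

namespace Vale.Agent.Lib.P347

open MeasureTheory

/-- `ℝ^d` with the Euclidean norm. -/
abbrev Sp (d : ℕ) : Type := EuclideanSpace ℝ (Fin d)

/-- The Hessian quadratic form `∇²V(x)[v, v]`: the second Fréchet derivative of `V` at `x`,
evaluated at the pair `(v, v)`. -/
noncomputable def hessQ {d : ℕ} (V : Sp d → ℝ) (x v : Sp d) : ℝ :=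
  iteratedFDeriv ℝ 2 V x (fun _ => v)

/-- The class `𝒱_d`: `C²` potentials with `V 0 = 0`, `∇V 0 = 0` and `I ≼ ∇²V x ≼ 2 I` for all `x`
(as quadratic forms: `‖v‖² ≤ ∇²V(x)[v, v] ≤ 2 ‖v‖²` for all `v`). -/
def potentialClass (d : ℕ) : Set (Sp d → ℝ) :=
  {V | ContDiff ℝ 2 V ∧ V 0 = 0 ∧ gradient V 0 = 0 ∧
    ∀ x v : Sp d, ‖v‖ ^ 2 ≤ hessQ V x v ∧ hessQ V x v ≤ 2 * ‖v‖ ^ 2}

/-- The Gibbs law `π_V (dx) = Z_V⁻¹ exp (-V x) dx`. -/
noncomputable def gibbs {d : ℕ} (V : Sp d → ℝ) : Measure (Sp d) :=
  (∫⁻ x, ENNReal.ofReal (Real.exp (-V x)))⁻¹ •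
    (volume.withDensity fun x => ENNReal.ofReal (Real.exp (-V x)))

/-- The exact first-order oracle: a query at `x` returns `(V x, ∇V x)`. -/
noncomputable def oracle {d : ℕ} (V : Sp d → ℝ) (x : Sp d) : ℝ × Sp d :=
  (V x, gradient V x)

/-- An adaptive algorithm whose query points are functions of a seed `s : S` and of the oracle
answers received so far.  `weight s` is the probability of the seed `s`, `query s l` is the next
query point after the list `l` of answers, and `output s l` is the conditional law of the output
given the seed `s` and the final list `l` of answers (further randomness is allowed there). -/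
structure SeededAlg (d : ℕ) (S : Type) where
  weight : S → ENNReal
  query : S → List (ℝ × Sp d) → Sp d
  output : S → List (ℝ × Sp d) → Measure (Sp d)

/-- The list of the first `k` oracle answers when the algorithm runs on `V` with seed `s`. -/
noncomputable def transcript {d : ℕ} {S : Type} (A : SeededAlg d S) (V : Sp d → ℝ) (s : S) :
    ℕ → List (ℝ × Sp d)
  | 0 => []
  | k + 1 => transcript A V s k ++ [oracle V (A.query s (transcript A V s k))]

/-- The law of the output after `q` queries on the potential `V`. -/
noncomputable def outputLaw {d : ℕ} {S : Type} [Fintype S] (A : SeededAlg d S) (V : Sp d → ℝ)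
    (q : ℕ) : Measure (Sp d) :=
  ∑ s, A.weight s • A.output s (transcript A V s q)

end Vale.Agent.Lib.P347
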