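import Vale.Agent.Lib.P347.Adversary

namespace Vale.Agent.Lib.P347

open MeasureTheory

/-- Extension of four orthonormal vectors of `ℝ^(4+n)` to an orthonormal basis whose first four
vectors are the given ones. -/
lemma exists_basis_extension {n : ℕ} (u : Fin 4 → Sp (4 + n)) (hu : Orthonormal ℝ u) :
    ∃ b : OrthonormalBasis (Fin (4 + n)) ℝ (Sp (4 + n)), ∀ j : Fin 4, b (Fin.castAdd n j) = u j := by
  classical
  let v : Fin (4 + n) → Sp (4 + n) := fun i => if h : (i : ℕ) < 4 then u ⟨i, h⟩ else 0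
  let s : Set (Fin (4 + n)) := {i | (i : ℕ) < 4}
  have hv : Orthonormal ℝ (s.domRestrict v) := by
    have hfun : s.domRestrict v = u ∘ (fun i : s => (⟨(i : Fin (4 + n)), i.2⟩ : Fin 4)) := by
      funext i
      have hi : ((i : Fin (4 + n)) : ℕ) < 4 := i.2
      simp only [Set.domRestrict, v, Function.comp]
      rw [dif_pos hi]
    rw [hfun]
    apply hu.comp
    intro i i' hii
    have : ((i : Fin (4 + n)) : ℕ) = ((i' : Fin (4 + n)) : ℕ) := by
      simpa using congrArg (fun t : Fin 4 => (t : ℕ)) hii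
    exact Subtype.ext (Fin.ext this)
  have hcard : Module.finrank ℝ (Sp (4 + n)) = Fintype.card (Fin (4 + n)) := by simp
  obtain ⟨b, hb⟩ := hv.exists_orthonormalBasis_extension_of_card_eq hcard
  refine ⟨b, fun j => ?_⟩
  have hj : ((Fin.castAdd n j : Fin (4 + n)) : ℕ) < 4 := by simp
  rw [hb (Fin.castAdd n j) hj]
  simp only [v]
  rw [dif_pos hj]
  congr 1

/-- The coefficient vector `(a + 1/2, a + 1/2, a + 1/2, a + 1/2, 1/2, …, 1/2)`. -/
noncomputable def coef (n : ℕ) (a : ℝ) : Fin (4 + n) → ℝ :=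
  Fin.addCases (fun _ => a + 1 / 2) (fun _ => 1 / 2)

lemma coef_sum {n : ℕ} (a : ℝ) (g : Fin (4 + n) → ℝ) :
    ∑ i, coef n a i * g i
      = (1 / 2) * ∑ i, g i + a * ∑ j : Fin 4, g (Fin.castAdd n j) := by
  rw [Fin.sum_univ_add, Fin.sum_univ_add]
  simp only [coef, Fin.addCases_left, Fin.addCases_right]
  rw [← Finset.mul_sum, ← Finset.mul_sum]
  ring

/-- The Gaussian-type integrand. -/
noncomputable def gaussFun {n : ℕ} (u : Fin 4 → Sp (4 + n)) (a : ℝ) (x : Sp (4 + n)) : ℝ :=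
  Real.exp (-((1 / 2) * ‖x‖ ^ 2 + a * ∑ j, (inner ℝ (u j) x) ^ 2))

/-- The value of the integral of `gaussFun u a`. -/
noncomputable def gaussVal (n : ℕ) (a : ℝ) : ℝ :=
  (Real.pi / (a + 1 / 2)) ^ 2 * (Real.sqrt (2 * Real.pi)) ^ n

lemma gaussVal_pos (n : ℕ) {a : ℝ} (ha : 0 ≤ a) : 0 < gaussVal n a := by
  unfold gaussVal
  have h1 : 0 < Real.pi / (a + 1 / 2) := div_pos Real.pi_pos (by linarith)
  have h2 : 0 < Real.sqrt (2 * Real.pi) := Real.sqrt_pos.mpr (by positivity)
  positivity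

lemma integral_gaussFun {n : ℕ} (u : Fin 4 → Sp (4 + n)) (hu : Orthonormal ℝ u) {a : ℝ}
    (ha : 0 ≤ a) : ∫ x, gaussFun u a x = gaussVal n a := by
  obtain ⟨b, hb⟩ := exists_basis_extension u hu
  -- rewrite the integrand in the coordinates of `b`
  have hfun : ∀ x : Sp (4 + n), gaussFun u a x
      = (fun z : Fin (4 + n) → ℝ => ∏ i, Real.exp (-coef n a i * (z i) ^ 2))
          ((MeasurableEquiv.toLp 2 (Fin (4 + n) → ℝ)).symm (b.measurableEquiv x)) := by
    intro x
    have hcoord : ∀ i, ((MeasurableEquiv.toLp 2 (Fin (4 + n) → ℝ)).symm (b.measurableEquiv x)) i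
        = inner ℝ (b i) x := fun i => b.repr_apply_apply x i
    simp only [hcoord]
    rw [← Real.exp_sum]
    unfold gaussFun
    congr 1
    have h1 : ∑ i, -coef n a i * (inner ℝ (b i) x) ^ 2
        = -∑ i, coef n a i * (inner ℝ (b i) x) ^ 2 := by
      rw [← Finset.sum_neg_distrib]
      exact Finset.sum_congr rfl (fun i _ => by ring)
    rw [h1, coef_sum, b.sum_sq_inner_right]
    simp only [hb]
  have hint1 : ∫ x, gaussFun u a x
      = ∫ z : Fin (4 + n) → ℝ, ∏ i, Real.exp (-coef n a i * (z i) ^ 2) := by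
    simp only [hfun]
    rw [b.measurePreserving_measurableEquiv.integral_comp'
      (g := fun y => (fun z : Fin (4 + n) → ℝ => ∏ i, Real.exp (-coef n a i * (z i) ^ 2))
        ((MeasurableEquiv.toLp 2 (Fin (4 + n) → ℝ)).symm y))]
    exact (EuclideanSpace.volume_preserving_symm_measurableEquiv_toLp (Fin (4 + n))).integral_comp'
      (g := fun z : Fin (4 + n) → ℝ => ∏ i, Real.exp (-coef n a i * (z i) ^ 2))
  rw [hint1]
  have hprod := integral_fintype_prod_eq_prod (𝕜 := ℝ) (ι := Fin (4 + n)) (E := fun _ => ℝ)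
    (f := fun i t => Real.exp (-coef n a i * t ^ 2)) (μ := fun _ => volume)
  rw [show (volume : Measure (Fin (4 + n) → ℝ)) = Measure.pi (fun _ => volume) from rfl, hprod]
  simp only [integral_gaussian]
  rw [Fin.prod_univ_add]
  simp only [coef, Fin.addCases_left, Fin.addCases_right, Finset.prod_const, Finset.card_univ,
    Fintype.card_fin]
  unfold gaussVal
  have hpos : 0 ≤ Real.pi / (a + 1 / 2) := (div_pos Real.pi_pos (by linarith)).le
  have h4 : Real.sqrt (Real.pi / (a + 1 / 2)) ^ 4 = (Real.pi / (a + 1 / 2)) ^ 2 := by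
    have := Real.sq_sqrt hpos
    calc Real.sqrt (Real.pi / (a + 1 / 2)) ^ 4
        = (Real.sqrt (Real.pi / (a + 1 / 2)) ^ 2) ^ 2 := by ring
      _ = (Real.pi / (a + 1 / 2)) ^ 2 := by rw [this]
  rw [h4]
  congr 2
  congr 1
  ring

lemma integrable_gaussFun {n : ℕ} (u : Fin 4 → Sp (4 + n)) (hu : Orthonormal ℝ u) {a : ℝ}
    (ha : 0 ≤ a) : Integrable (gaussFun u a) := by
  apply Integrable.of_integral_ne_zero
  rw [integral_gaussFun u hu ha]
  exact (gaussVal_pos n ha).ne'

end Vale.Agent.Lib.P347
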