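import Vale.Agent.Lib.P347.Gauss

namespace Vale.Agent.Lib.P347

open MeasureTheory

lemma gibbs_eq {d : ℕ} (V : Sp d → ℝ) (hV : Integrable (fun x => Real.exp (-V x))) :
    gibbs V = (ENNReal.ofReal (∫ x, Real.exp (-V x)))⁻¹ •
      (volume.withDensity fun x => ENNReal.ofReal (Real.exp (-V x))) := by
  unfold gibbs
  rw [ofReal_integral_eq_lintegral_ofReal hV
    (Filter.Eventually.of_forall (fun x => (Real.exp_pos _).le))]

lemma isFiniteMeasure_gibbs {d : ℕ} (V : Sp d → ℝ) (hV : Integrable (fun x => Real.exp (-V x)))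
    (hpos : 0 < ∫ x, Real.exp (-V x)) : IsFiniteMeasure (gibbs V) := by
  rw [gibbs_eq V hV]
  have hfin : IsFiniteMeasure (volume.withDensity fun x => ENNReal.ofReal (Real.exp (-V x))) :=
    isFiniteMeasure_withDensity_ofReal hV.2
  refine ⟨?_⟩
  rw [Measure.smul_apply]
  exact ENNReal.mul_lt_top (by simp [hpos]) (measure_lt_top _ _)

lemma integral_gibbs {d : ℕ} (V : Sp d → ℝ) (hVm : Measurable V)
    (hV : Integrable (fun x => Real.exp (-V x))) (f : Sp d → ℝ) :
    ∫ x, f x ∂(gibbs V) = (∫ x, Real.exp (-V x))⁻¹ * ∫ x, f x * Real.exp (-V x) := by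
  have hmeas : Measurable (fun x => ENNReal.ofReal (Real.exp (-V x))) :=
    (Real.measurable_exp.comp hVm.neg).ennreal_ofReal
  rw [gibbs_eq V hV, integral_smul_measure,
    integral_withDensity_eq_integral_toReal_smul hmeas
      (Filter.Eventually.of_forall (fun x => ENNReal.ofReal_lt_top))]
  simp only [smul_eq_mul]
  congr 1
  · rw [ENNReal.toReal_inv,
      ENNReal.toReal_ofReal (integral_nonneg (fun x => (Real.exp_pos _).le))]
  · refine integral_congr_ae (Filter.Eventually.of_forall (fun x => ?_))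
    simp only
    rw [ENNReal.toReal_ofReal (Real.exp_pos _).le, mul_comm]

/-- Total-variation control of integrals of `[0,1]`-valued functions (layer-cake formula). -/
lemma tv_integral_le {α : Type*} [MeasurableSpace α] (μ ν : Measure α) [IsFiniteMeasure μ]
    [IsFiniteMeasure ν] (f : α → ℝ) (hf : Measurable f) (h0 : ∀ x, 0 ≤ f x) (h1 : ∀ x, f x ≤ 1)
    (δ : ℝ) (h : ∀ B, MeasurableSet B → |μ.real B - ν.real B| ≤ δ) :
    |∫ x, f x ∂μ - ∫ x, f x ∂ν| ≤ δ := by
  have hbd : ∀ x, ‖f x‖ ≤ 1 := fun x => by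
    rw [Real.norm_eq_abs, abs_of_nonneg (h0 x)]; exact h1 x
  have hiμ : Integrable f μ :=
    Integrable.of_bound hf.aestronglyMeasurable 1 (Filter.Eventually.of_forall hbd)
  have hiν : Integrable f ν :=
    Integrable.of_bound hf.aestronglyMeasurable 1 (Filter.Eventually.of_forall hbd)
  rw [hiμ.integral_eq_integral_Ioc_meas_le (M := 1) (Filter.Eventually.of_forall h0)
      (Filter.Eventually.of_forall h1),
    hiν.integral_eq_integral_Ioc_meas_le (M := 1) (Filter.Eventually.of_forall h0)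
      (Filter.Eventually.of_forall h1)]
  have hanti : ∀ (ρ : Measure α) [IsFiniteMeasure ρ],
      IntegrableOn (fun t : ℝ => ρ.real {a | t ≤ f a}) (Set.Ioc 0 1) := by
    intro ρ _
    have hanti : AntitoneOn (fun t : ℝ => ρ.real {a | t ≤ f a}) (Set.Icc 0 1) := by
      intro s _ t _ hst
      exact measureReal_mono (fun a ha => le_trans hst ha)
    exact (hanti.integrableOn_isCompact isCompact_Icc).mono_set Set.Ioc_subset_Icc_self
  rw [← integral_sub (hanti μ) (hanti ν)]
  have hkey := norm_setIntegral_le_of_norm_le_const (μ := (volume : Measure ℝ))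
    (s := Set.Ioc (0 : ℝ) 1) (C := δ)
    (f := fun t : ℝ => μ.real {a | t ≤ f a} - ν.real {a | t ≤ f a}) (by simp)
    (fun t _ => by
      rw [Real.norm_eq_abs]
      exact h _ (measurableSet_le measurable_const hf))
  simpa using hkey

/-- The test function separating the two Gibbs laws. -/
noncomputable def testFun {n : ℕ} (u : Fin 4 → Sp (4 + n)) (x : Sp (4 + n)) : ℝ :=
  Real.exp (-((7 / 20 : ℝ) * ∑ j, (inner ℝ (u j) x) ^ 2))

lemma testFun_nonneg {n : ℕ} (u : Fin 4 → Sp (4 + n)) (x : Sp (4 + n)) : 0 ≤ testFun u x :=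
  (Real.exp_pos _).le

lemma testFun_le_one {n : ℕ} (u : Fin 4 → Sp (4 + n)) (x : Sp (4 + n)) : testFun u x ≤ 1 := by
  unfold testFun
  rw [Real.exp_le_one_iff]
  have : 0 ≤ ∑ j, (inner ℝ (u j) x) ^ 2 := Finset.sum_nonneg (fun j _ => sq_nonneg _)
  linarith

lemma measurable_testFun {n : ℕ} (u : Fin 4 → Sp (4 + n)) : Measurable (testFun u) := by
  unfold testFun
  fun_prop

lemma testFun_mul {n : ℕ} (u : Fin 4 → Sp (4 + n)) (a : ℝ) (x : Sp (4 + n)) :
    testFun u x * gaussFun u a x = gaussFun u (a + 7 / 20) x := by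
  unfold testFun gaussFun
  rw [← Real.exp_add]
  congr 1
  ring

lemma exp_neg_quadPot {n : ℕ} (u : Fin 4 → Sp (4 + n)) (x : Sp (4 + n)) :
    Real.exp (-quadPot u x) = gaussFun u (1 / 2) x := by
  unfold quadPot gaussFun
  congr 1
  ring

lemma exp_neg_quadPot_zero {n : ℕ} (u : Fin 4 → Sp (4 + n)) (x : Sp (4 + n)) :
    Real.exp (-quadPot (0 : Fin 4 → Sp (4 + n)) x) = gaussFun u 0 x := by
  unfold quadPot gaussFun
  congr 1
  simp

lemma gaussVal_ratio (n : ℕ) {a b : ℝ} (ha : 0 ≤ a) (hb : 0 ≤ b) :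
    (gaussVal n a)⁻¹ * gaussVal n b = ((a + 1 / 2) / (b + 1 / 2)) ^ 2 := by
  unfold gaussVal
  have h2 : Real.sqrt (2 * Real.pi) ^ n ≠ 0 :=
    pow_ne_zero _ (Real.sqrt_pos.mpr (by positivity)).ne'
  have hpi : Real.pi ≠ 0 := Real.pi_pos.ne'
  have ha' : a + 1 / 2 ≠ 0 := by linarith
  have hb' : b + 1 / 2 ≠ 0 := by linarith
  field_simp

lemma measurable_quadPot {d : ℕ} (u : Fin 4 → Sp d) : Measurable (quadPot u) :=
  (contDiff_quadPot u).continuous.measurable

lemma integral_testFun_gibbs_zero {n : ℕ} (u : Fin 4 → Sp (4 + n)) (hu : Orthonormal ℝ u) :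
    ∫ x, testFun u x ∂(gibbs (quadPot (0 : Fin 4 → Sp (4 + n)))) = 100 / 289 := by
  have hfun : (fun x => Real.exp (-quadPot (0 : Fin 4 → Sp (4 + n)) x)) = gaussFun u 0 :=
    funext (exp_neg_quadPot_zero u)
  have hint : Integrable (fun x => Real.exp (-quadPot (0 : Fin 4 → Sp (4 + n)) x)) := by
    rw [hfun]; exact integrable_gaussFun u hu le_rfl
  rw [integral_gibbs _ (measurable_quadPot _) hint]
  simp only [exp_neg_quadPot_zero u, testFun_mul]
  rw [integral_gaussFun u hu le_rfl, integral_gaussFun u hu (by norm_num),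
    gaussVal_ratio n le_rfl (by norm_num)]
  norm_num

lemma integral_testFun_gibbs_one {n : ℕ} (u : Fin 4 → Sp (4 + n)) (hu : Orthonormal ℝ u) :
    ∫ x, testFun u x ∂(gibbs (quadPot u)) = 400 / 729 := by
  have hfun : (fun x => Real.exp (-quadPot u x)) = gaussFun u (1 / 2) :=
    funext (exp_neg_quadPot u)
  have hint : Integrable (fun x => Real.exp (-quadPot u x)) := by
    rw [hfun]; exact integrable_gaussFun u hu (by norm_num)
  rw [integral_gibbs _ (measurable_quadPot _) hint]
  simp only [exp_neg_quadPot u, testFun_mul]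
  rw [integral_gaussFun u hu (by norm_num), integral_gaussFun u hu (by norm_num),
    gaussVal_ratio n (by norm_num) (by norm_num)]
  norm_num

lemma isFiniteMeasure_gibbs_zero {n : ℕ} (u : Fin 4 → Sp (4 + n)) (hu : Orthonormal ℝ u) :
    IsFiniteMeasure (gibbs (quadPot (0 : Fin 4 → Sp (4 + n)))) := by
  have hfun : (fun x => Real.exp (-quadPot (0 : Fin 4 → Sp (4 + n)) x)) = gaussFun u 0 :=
    funext (exp_neg_quadPot_zero u)
  apply isFiniteMeasure_gibbs
  · rw [hfun]; exact integrable_gaussFun u hu le_rfl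
  · rw [hfun, integral_gaussFun u hu le_rfl]; exact gaussVal_pos n le_rfl

lemma isFiniteMeasure_gibbs_one {n : ℕ} (u : Fin 4 → Sp (4 + n)) (hu : Orthonormal ℝ u) :
    IsFiniteMeasure (gibbs (quadPot u)) := by
  have hfun : (fun x => Real.exp (-quadPot u x)) = gaussFun u (1 / 2) :=
    funext (exp_neg_quadPot u)
  apply isFiniteMeasure_gibbs
  · rw [hfun]; exact integrable_gaussFun u hu (by norm_num)
  · rw [hfun, integral_gaussFun u hu (by norm_num)]; exact gaussVal_pos n (by norm_num)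

/-- The two Gibbs laws are at total-variation distance more than `1/5`. -/
lemma gibbs_separated {n : ℕ} (u : Fin 4 → Sp (4 + n)) (hu : Orthonormal ℝ u) :
    ∃ B : Set (Sp (4 + n)), MeasurableSet B ∧
      1 / 5 < |(gibbs (quadPot u)).real B - (gibbs (quadPot (0 : Fin 4 → Sp (4 + n)))).real B| := by
  by_contra hcon
  have hall : ∀ B : Set (Sp (4 + n)), MeasurableSet B →
      |(gibbs (quadPot u)).real B - (gibbs (quadPot (0 : Fin 4 → Sp (4 + n)))).real B| ≤ 1 / 5 := by
    intro B hB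
    by_contra hlt
    exact hcon ⟨B, hB, not_le.mp hlt⟩
  have hfin0 := isFiniteMeasure_gibbs_zero u hu
  have hfin1 := isFiniteMeasure_gibbs_one u hu
  have hkey := tv_integral_le (gibbs (quadPot u)) (gibbs (quadPot (0 : Fin 4 → Sp (4 + n))))
    (testFun u) (measurable_testFun u) (testFun_nonneg u) (testFun_le_one u) (1 / 5) hall
  rw [integral_testFun_gibbs_zero u hu, integral_testFun_gibbs_one u hu] at hkey
  norm_num [abs_le] at hkey

end Vale.Agent.Lib.P347
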