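import Vale.Agent.Lib.P347.Gibbs

namespace Vale.Agent.Lib.P347

open MeasureTheory

/-- Lower bound for seeded algorithms: with `q` queries and a seed set `S` such that
`q * |S| + 4 ≤ d`, some potential of the class is missed by more than `1/10` in total
variation. -/
theorem seeded_lower_bound (d q : ℕ) (S : Type) [Fintype S] (A : SeededAlg d S)
    (hq : q * Fintype.card S + 4 ≤ d) :
    ∃ V ∈ potentialClass d, ∃ B : Set (Sp d), MeasurableSet B ∧
      1 / 10 < |(outputLaw A V q).real B - (gibbs V).real B| := by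
  obtain ⟨n, rfl⟩ : ∃ n, d = 4 + n := ⟨d - 4, by omega⟩
  let P : S × Fin q → Sp (4 + n) :=
    fun p => A.query p.1 (transcript A (quadPot 0) p.1 p.2)
  have hcard : Fintype.card (S × Fin q) + 4 ≤ 4 + n := by
    rw [Fintype.card_prod, Fintype.card_fin, mul_comm]; exact hq
  obtain ⟨u, hu, horth⟩ := exists_orthonormal_orth P hcard
  have hlaw : outputLaw A (quadPot u) q = outputLaw A (quadPot 0) q :=
    outputLaw_eq A u q (fun s k hk j => horth j (s, ⟨k, hk⟩))
  have hmem1 : quadPot u ∈ potentialClass (4 + n) := quadPot_mem u (bessel_four u hu)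
  have hmem0 : quadPot (0 : Fin 4 → Sp (4 + n)) ∈ potentialClass (4 + n) :=
    quadPot_mem 0 (fun v => by simp)
  obtain ⟨B, hB, hsep⟩ := gibbs_separated u hu
  by_cases h1 : 1 / 10 < |(outputLaw A (quadPot u) q).real B - (gibbs (quadPot u)).real B|
  · exact ⟨quadPot u, hmem1, B, hB, h1⟩
  · refine ⟨quadPot 0, hmem0, B, hB, ?_⟩
    rw [hlaw] at h1
    have h1' := not_lt.mp h1
    by_contra h0
    have h0' := not_lt.mp h0
    have htri := abs_sub_le ((gibbs (quadPot u)).real B)
      ((outputLaw A (quadPot 0) q).real B)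
      ((gibbs (quadPot (0 : Fin 4 → Sp (4 + n)))).real B)
    rw [abs_sub_comm] at h1'
    linarith

end Vale.Agent.Lib.P347
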