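import Vale.Agent.Lib.P347.Defs

namespace Vale.Agent.Lib.P347

open MeasureTheory

/-- The quadratic potential `(1/2) (‖x‖² + ∑ⱼ ⟪u j, x⟫²)`. -/
noncomputable def quadPot {d : ℕ} (u : Fin 4 → Sp d) (x : Sp d) : ℝ :=
  (1 / 2 : ℝ) * (‖x‖ ^ 2 + ∑ j, (inner ℝ (u j) x) ^ 2)

/-- The real inner product as a continuous bilinear map. -/
noncomputable def innerBL (d : ℕ) : Sp d →L[ℝ] (Sp d →L[ℝ] ℝ) :=
  (isBoundedBilinearMap_inner (𝕜 := ℝ) (E := Sp d)).toContinuousLinearMap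

lemma innerBL_apply {d : ℕ} (x v : Sp d) : innerBL d x v = inner ℝ x v := rfl

/-- The derivative of `quadPot u`, as a continuous linear map in the base point. -/
noncomputable def quadDeriv {d : ℕ} (u : Fin 4 → Sp d) : Sp d →L[ℝ] (Sp d →L[ℝ] ℝ) :=
  innerBL d + ∑ j, (innerBL d (u j)).smulRight (innerBL d (u j))

lemma quadDeriv_apply {d : ℕ} (u : Fin 4 → Sp d) (x v : Sp d) :
    quadDeriv u x v = inner ℝ x v + ∑ j, inner ℝ (u j) x * inner ℝ (u j) v := by
  simp [quadDeriv, innerBL_apply]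

lemma hasFDerivAt_quadPot {d : ℕ} (u : Fin 4 → Sp d) (x : Sp d) :
    HasFDerivAt (quadPot u) (quadDeriv u x) x := by
  have h1 : HasFDerivAt (fun x : Sp d => ‖x‖ ^ 2) (2 • innerSL ℝ x) x :=
    (hasStrictFDerivAt_norm_sq x).hasFDerivAt
  have h2 : ∀ j : Fin 4, HasFDerivAt (fun x : Sp d => (innerBL d (u j) x) ^ 2)
      ((2 • (innerBL d (u j) x) ^ (2 - 1)) • innerBL d (u j)) x := by
    intro j
    have hlin : HasFDerivAt (fun x : Sp d => innerBL d (u j) x) (innerBL d (u j)) x :=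
      (innerBL d (u j)).hasFDerivAt
    exact hlin.pow 2
  have h3 : HasFDerivAt (fun x : Sp d => ∑ j, (innerBL d (u j) x) ^ 2)
      (∑ j, (2 • (innerBL d (u j) x) ^ (2 - 1)) • innerBL d (u j)) x :=
    HasFDerivAt.fun_sum (fun j _ => h2 j)
  have h4 := (h1.add h3).const_mul (1 / 2 : ℝ)
  have h5 : HasFDerivAt (fun y : Sp d => (1 / 2 : ℝ) * (‖y‖ ^ 2 + ∑ j, (inner ℝ (u j) y) ^ 2))
      ((1 / 2 : ℝ) • (2 • innerSL ℝ x
        + ∑ j, (2 • (innerBL d (u j) x) ^ (2 - 1)) • innerBL d (u j))) x := h4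
  have h6 : HasFDerivAt (quadPot u)
      ((1 / 2 : ℝ) • (2 • innerSL ℝ x
        + ∑ j, (2 • (innerBL d (u j) x) ^ (2 - 1)) • innerBL d (u j))) x := h5
  refine h6.congr_fderiv ?_
  ext v
  simp only [quadDeriv_apply, _root_.smul_apply, _root_.add_apply,
    _root_.sum_apply, innerSL_apply_apply, innerBL_apply, smul_eq_mul, nsmul_eq_mul,
    Nat.cast_ofNat, Finset.mul_sum, mul_add]
  congr 1
  · ring
  · refine Finset.sum_congr rfl (fun j _ => ?_)
    norm_num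
    ring

lemma fderiv_quadPot {d : ℕ} (u : Fin 4 → Sp d) :
    fderiv ℝ (quadPot u) = fun x => quadDeriv u x := by
  funext x
  exact (hasFDerivAt_quadPot u x).fderiv

lemma fderiv_fderiv_quadPot {d : ℕ} (u : Fin 4 → Sp d) (x : Sp d) :
    fderiv ℝ (fderiv ℝ (quadPot u)) x = quadDeriv u := by
  rw [fderiv_quadPot]
  exact (quadDeriv u).fderiv

lemma contDiff_quadPot {d : ℕ} (u : Fin 4 → Sp d) : ContDiff ℝ 2 (quadPot u) := by
  unfold quadPot
  have h1 : ContDiff ℝ 2 (fun x : Sp d => ‖x‖ ^ 2) := contDiff_norm_sq ℝ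
  have h2 : ContDiff ℝ 2 (fun x : Sp d => ∑ j, (inner ℝ (u j) x) ^ 2) := by
    apply ContDiff.sum
    intro j _
    exact ((innerSL ℝ (u j)).contDiff).pow 2
  exact contDiff_const.mul (h1.add h2)

lemma quadPot_mem {d : ℕ} (u : Fin 4 → Sp d)
    (hu : ∀ v : Sp d, ∑ j, (inner ℝ (u j) v) ^ 2 ≤ ‖v‖ ^ 2) :
    quadPot u ∈ potentialClass d := by
  refine ⟨contDiff_quadPot u, by simp [quadPot], ?_, ?_⟩
  · have h0 : fderiv ℝ (quadPot u) 0 = 0 := by
      rw [fderiv_quadPot]; simp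
    simp [gradient, h0]
  · intro x v
    rw [hessQ, iteratedFDeriv_two_apply, fderiv_fderiv_quadPot, quadDeriv_apply,
      real_inner_self_eq_norm_sq]
    have hsum : ∑ j, inner ℝ (u j) v * inner ℝ (u j) v = ∑ j, (inner ℝ (u j) v) ^ 2 :=
      Finset.sum_congr rfl (fun j _ => by ring)
    rw [hsum]
    have hnn : 0 ≤ ∑ j, (inner ℝ (u j) v) ^ 2 := Finset.sum_nonneg (fun j _ => sq_nonneg _)
    have := hu v
    constructor <;> linarith

/-- At a point orthogonal to all the `u j`, the oracle cannot tell `quadPot u` from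
`quadPot 0`. -/
lemma oracle_quadPot_eq {d : ℕ} (u : Fin 4 → Sp d) (y : Sp d)
    (hy : ∀ j, inner ℝ (u j) y = 0) : oracle (quadPot u) y = oracle (quadPot 0) y := by
  have hval : quadPot u y = quadPot 0 y := by
    simp [quadPot, hy]
  have hder : fderiv ℝ (quadPot u) y = fderiv ℝ (quadPot 0) y := by
    rw [fderiv_quadPot, fderiv_quadPot]
    ext v
    simp [quadDeriv_apply, hy]
  simp only [oracle, gradient, hval, hder]

end Vale.Agent.Lib.P347
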