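import Vale.Agent.Lib.P347.Main

namespace Vale.Agent.Lib.P347

open MeasureTheory

lemma isProbabilityMeasure_gibbs {d : ℕ} (V : Sp d → ℝ)
    (hV : Integrable (fun x => Real.exp (-V x))) (hpos : 0 < ∫ x, Real.exp (-V x)) :
    IsProbabilityMeasure (gibbs V) := by
  refine ⟨?_⟩
  unfold gibbs
  rw [Measure.smul_apply, withDensity_apply _ MeasurableSet.univ, Measure.restrict_univ,
    smul_eq_mul]
  have hZ : ∫⁻ x, ENNReal.ofReal (Real.exp (-V x)) = ENNReal.ofReal (∫ x, Real.exp (-V x)) :=
    (ofReal_integral_eq_lintegral_ofReal hV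
      (Filter.Eventually.of_forall (fun x => (Real.exp_pos _).le))).symm
  rw [hZ]
  exact ENNReal.inv_mul_cancel (by simp [hpos]) ENNReal.ofReal_ne_top

lemma isProbabilityMeasure_gibbs_zero {n : ℕ} (u : Fin 4 → Sp (4 + n)) (hu : Orthonormal ℝ u) :
    IsProbabilityMeasure (gibbs (quadPot (0 : Fin 4 → Sp (4 + n)))) := by
  have hfun : (fun x => Real.exp (-quadPot (0 : Fin 4 → Sp (4 + n)) x)) = gaussFun u 0 :=
    funext (exp_neg_quadPot_zero u)
  apply isProbabilityMeasure_gibbs
  · rw [hfun]; exact integrable_gaussFun u hu le_rfl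
  · rw [hfun, integral_gaussFun u hu le_rfl]; exact gaussVal_pos n le_rfl

lemma isProbabilityMeasure_gibbs_one {n : ℕ} (u : Fin 4 → Sp (4 + n)) (hu : Orthonormal ℝ u) :
    IsProbabilityMeasure (gibbs (quadPot u)) := by
  have hfun : (fun x => Real.exp (-quadPot u x)) = gaussFun u (1 / 2) :=
    funext (exp_neg_quadPot u)
  apply isProbabilityMeasure_gibbs
  · rw [hfun]; exact integrable_gaussFun u hu (by norm_num)
  · rw [hfun, integral_gaussFun u hu (by norm_num)]; exact gaussVal_pos n (by norm_num)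

/-- The lower bound, with the witness potential having a genuine Gibbs probability law. -/
theorem seeded_lower_bound_proper (d q : ℕ) (S : Type) [Fintype S] (A : SeededAlg d S)
    (hq : q * Fintype.card S + 4 ≤ d) :
    ∃ V ∈ potentialClass d, IsProbabilityMeasure (gibbs V) ∧ ∃ B : Set (Sp d), MeasurableSet B ∧
      1 / 10 < |(outputLaw A V q).real B - (gibbs V).real B| := by
  obtain ⟨n, rfl⟩ : ∃ n, d = 4 + n := ⟨d - 4, by omega⟩
  let P : S × Fin q → Sp (4 + n) :=
    fun p => A.query p.1 (transcript A (quadPot 0) p.1 p.2)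
  have hcard : Fintype.card (S × Fin q) + 4 ≤ 4 + n := by
    rw [Fintype.card_prod, Fintype.card_fin, mul_comm]; exact hq
  obtain ⟨u, hu, horth⟩ := exists_orthonormal_orth P hcard
  have hlaw : outputLaw A (quadPot u) q = outputLaw A (quadPot 0) q :=
    outputLaw_eq A u q (fun s k hk j => horth j (s, ⟨k, hk⟩))
  have hmem1 : quadPot u ∈ potentialClass (4 + n) := quadPot_mem u (bessel_four u hu)
  have hmem0 : quadPot (0 : Fin 4 → Sp (4 + n)) ∈ potentialClass (4 + n) :=
    quadPot_mem 0 (fun v => by simp)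
  obtain ⟨B, hB, hsep⟩ := gibbs_separated u hu
  by_cases h1 : 1 / 10 < |(outputLaw A (quadPot u) q).real B - (gibbs (quadPot u)).real B|
  · exact ⟨quadPot u, hmem1, isProbabilityMeasure_gibbs_one u hu, B, hB, h1⟩
  · refine ⟨quadPot 0, hmem0, isProbabilityMeasure_gibbs_zero u hu, B, hB, ?_⟩
    rw [hlaw] at h1
    have h1' := not_lt.mp h1
    by_contra h0
    have h0' := not_lt.mp h0
    have htri := abs_sub_le ((gibbs (quadPot u)).real B)
      ((outputLaw A (quadPot 0) q).real B)
      ((gibbs (quadPot (0 : Fin 4 → Sp (4 + n)))).real B)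
    rw [abs_sub_comm] at h1'
    linarith

end Vale.Agent.Lib.P347
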